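import Vale.Agent.H28.CapDefs
import Vale.Agent.H28.Nu01

open Vale.Agent.H28

/-- The classical capacity of the amplitude damping channel (`ν = 0`), and of its bit-flipped
version (`ν = 1`), is additive and given by a one-parameter formula. -/
theorem Vale.Agent.Results.P358.AmplitudeDamping.result (γ ν : ℝ)
    (hγ : γ ∈ Set.Icc (0 : ℝ) 1) (hν : ν = 0 ∨ ν = 1) :
    capacity (gad γ ν) = holevo (gad γ ν) ∧
    (∀ n : ℕ, BddAbove (holevoSet (tensorPow (gad γ ν) n)) ∧
      holevo (tensorPow (gad γ ν) n) = n * holevo (gad γ ν)) ∧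
    BddAbove (rateSet (gad γ ν)) ∧
    IsGreatest ((fun q : ℝ => (Real.binEntropy ((1 - γ) * q)
      - Real.binEntropy ((1 + √(1 - 4 * γ * (1 - γ) * q ^ 2)) / 2)) / Real.log 2) ''
      Set.Icc 0 1) (capacity (gad γ ν)) := by
  obtain ⟨h1, h2, h3, h4⟩ := capacity_zero_one hγ hν
  exact ⟨h3, fun n => ⟨⟨_, (h1 n).2⟩, (h1 n).csSup_eq⟩, by rw [h2]; exact bddAbove_singleton, h4⟩
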