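import Vale.Agent.H28.CapDefs
import Vale.Agent.H28.ZAll
import Vale.Agent.H19.GAD.MainBlock
import Vale.Agent.H13.GADG

open Vale.Agent.H28

/-- The classical capacity of every generalized amplitude damping channel is additive, and given
by a one-parameter formula. -/
theorem Vale.Agent.Results.P358.GADCapacity.result (γ ν : ℝ)
    (hγ : γ ∈ Set.Icc (0 : ℝ) 1) (hν : ν ∈ Set.Icc (0 : ℝ) 1) :
    capacity (gad γ ν) = holevo (gad γ ν) ∧
    BddAbove (holevoSet (gad γ ν)) ∧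
    (∀ n : ℕ, BddAbove (holevoSet (tensorPow (gad γ ν) n)) ∧
      holevo (tensorPow (gad γ ν) n) = n * holevo (gad γ ν)) ∧
    BddAbove (rateSet (gad γ ν)) ∧
    IsGreatest ((fun q : ℝ => (Real.binEntropy ((1 - γ) * q + γ * ν)
      - Real.binEntropy ((1 + √(1 - 4 * γ * ((1 - γ) * (q - ν) ^ 2 + ν * (1 - ν)))) / 2))
        / Real.log 2) '' Set.Icc 0 1) (capacity (gad γ ν)) := by
  obtain ⟨hγ0, hγ1⟩ := hγ
  obtain ⟨hν0, hν1⟩ := hν
  have MB : MainBlock := fun n α Y β D E h1 h2 h3 h4 h5 h6 h7 =>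
    Vale.Agent.H19.GAD.main_block h1 h2 h3 h4 h5 h6 h7
  obtain ⟨h1, h2, h3, h4⟩ := additivity hγ0 hγ1 hν0 hν1
    (Vale.Agent.H13.GADG.g_convex_all hγ0 hγ1 hν0 hν1)
    (zclaim_all_of MB hγ0 hγ1 hν0 hν1) (fun q => rfl)
  refine ⟨h3, ?_, fun n => ⟨⟨_, (h1 n).2⟩, (h1 n).csSup_eq⟩,
    by rw [h2]; exact bddAbove_singleton, ?_⟩
  · rw [holevoSet_one]
    exact ⟨_, (h1 1).2⟩
  · have himg : (fun q : ℝ => (Real.binEntropy ((1 - γ) * q + γ * ν)
        - Real.binEntropy ((1 + √(1 - 4 * γ * ((1 - γ) * (q - ν) ^ 2 + ν * (1 - ν)))) / 2))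
          / Real.log 2)
        = (fun q : ℝ => (Real.binEntropy (γ * ν + (1 - γ) * q)
          - pairEnt 1 (((1 - γ) * q + γ * ν) * (1 - ((1 - γ) * q + γ * ν))
            - (1 - γ) * (q * (1 - q)))) / Real.log 2) := by
      funext q
      rw [pairEnt_one, add_comm (γ * ν) ((1 - γ) * q)]
      congr 6
      ring
    rw [himg]
    exact h4
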